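import Vale.Agent.Lib.P183.SL64.Final
import Vale.Agent.Lib.P183.IntervalRep

namespace Vale.Agent.Results.P183.A_seven_interval

open Vale.Agent.Lib.P183

/-- The seven element lattice `Seven` (the product of a two element and a three element chain
with one more element that is at once an atom and a coatom) is isomorphic to an interval in the
subgroup lattice of a finite group, and hence to the congruence lattice of a finite algebra. -/
theorem result :
    (∃ (G : Type) (_ : Group G) (_ : Finite G) (H : Subgroup G),
      Nonempty (Seven ≃o Set.Icc H (⊤ : Subgroup G))) ∧ Representable Seven :=
  ⟨⟨SL64.T, inferInstance, inferInstance, SL64.HH, ⟨SL64.isoIcc⟩⟩,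
    representable_of_iso_icc SL64.HH SL64.isoIcc⟩

end Vale.Agent.Results.P183.A_seven_interval
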