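import Vale.Agent.Lib.P183.Upto7

namespace Vale.Agent.Results.P183.A_upto_seven

open Vale.Agent.Lib.P183

/-- Every finite nonempty lattice with at most seven elements is isomorphic to the full congruence
lattice of a finite algebra. -/
theorem result (L : Type) [Lattice L] [Fintype L] [Nonempty L] (h : Fintype.card L ≤ 7) :
    Representable L :=
  Cl.rep_le7 L h

end Vale.Agent.Results.P183.A_upto_seven
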