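import Vale.Agent.Lib.P183.Sums
import Vale.Agent.Results.P183.B00000_all

namespace Vale.Agent.Results.P183.A000000_closure

open Vale.Agent.Lib.P183

/-- Representable posets are closed under Day doubling of arbitrary convex subsets, under direct
products and under glued sums at a cut element; every finite nonempty lattice with at most seven
elements is representable; every finite nonempty lattice such that the join dependency relation of
the lattice or of its dual has no cycle is representable; the seven element lattice `Seven` is an
interval of the subgroup lattice of a finite group and is representable. -/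
theorem result :
    (∀ (L : Type) [PartialOrder L] (C : Set L),
      (∀ a b c, a ∈ C → c ∈ C → a ≤ b → b ≤ c → b ∈ C) →
        Representable L → Representable (DayDoubling L C)) ∧
    (∀ (L₁ L₂ : Type) [PartialOrder L₁] [PartialOrder L₂],
      Representable L₁ → Representable L₂ → Representable (L₁ × L₂)) ∧
    (∀ (P : Type) [PartialOrder P] (e : P), (∀ x, x ≤ e ∨ e ≤ x) →
      Representable (Set.Iic e) → Representable (Set.Ici e) → Representable P) ∧
    (∀ (L : Type) [Lattice L] [Fintype L] [Nonempty L], Fintype.card L ≤ 7 → Representable L) ∧
    (∀ (L : Type) [Lattice L] [Finite L] [Nonempty L],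
      NoDCycle L ∨ NoDCycle Lᵒᵈ → Representable L) ∧
    ((∃ (G : Type) (_ : Group G) (_ : Finite G) (H : Subgroup G),
        Nonempty (Seven ≃o Set.Icc H (⊤ : Subgroup G))) ∧ Representable Seven) :=
  ⟨B00000_all.result.1,
   fun _ _ _ _ h₁ h₂ => representable_prod h₁ h₂,
   fun _ _ e hc h₁ h₂ => representable_of_cut e hc h₁ h₂,
   B00000_all.result.2⟩

end Vale.Agent.Results.P183.A000000_closure
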