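import Vale.Agent.Lib.P183.Fibre
import Vale.Agent.Results.P183.A000000_closure

namespace Vale.Agent.Results.P183.A0000000_fibre

open Vale.Agent.Lib.P183

/-- Representable posets are closed under Day doubling of arbitrary convex subsets, under direct
products, under glued sums at a cut element, and under passing from a product to the subposet cut
out by conditions of the form `f ≤ a → g ≤ b` where `f` belongs to a splitting pair; every finite
nonempty lattice with at most seven elements is representable; every finite nonempty lattice such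
that the join dependency relation of the lattice or of its dual has no cycle is representable; the
seven element lattice `Seven` is an interval of the subgroup lattice of a finite group and is
representable. -/
theorem result :
    (∀ (L₁ L₂ : Type) [PartialOrder L₁] [PartialOrder L₂]
      (S₁ : Set (L₁ × L₂)) (S₂ : Set (L₂ × L₁)),
      (∀ p ∈ S₁, ∃ i : L₁, ∀ x, p.1 ≤ x ↔ ¬ x ≤ i) →
      (∀ p ∈ S₂, ∃ i : L₂, ∀ x, p.1 ≤ x ↔ ¬ x ≤ i) →
      Representable L₁ → Representable L₂ →
      Representable {r : L₁ × L₂ //
        (∀ p ∈ S₁, p.1 ≤ r.1 → p.2 ≤ r.2) ∧ (∀ p ∈ S₂, p.1 ≤ r.2 → p.2 ≤ r.1)}) ∧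
    (∀ (L : Type) [PartialOrder L] (C : Set L),
      (∀ a b c, a ∈ C → c ∈ C → a ≤ b → b ≤ c → b ∈ C) →
        Representable L → Representable (DayDoubling L C)) ∧
    (∀ (L₁ L₂ : Type) [PartialOrder L₁] [PartialOrder L₂],
      Representable L₁ → Representable L₂ → Representable (L₁ × L₂)) ∧
    (∀ (P : Type) [PartialOrder P] (e : P), (∀ x, x ≤ e ∨ e ≤ x) →
      Representable (Set.Iic e) → Representable (Set.Ici e) → Representable P) ∧
    (∀ (L : Type) [Lattice L] [Fintype L] [Nonempty L], Fintype.card L ≤ 7 → Representable L) ∧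
    (∀ (L : Type) [Lattice L] [Finite L] [Nonempty L],
      NoDCycle L ∨ NoDCycle Lᵒᵈ → Representable L) ∧
    ((∃ (G : Type) (_ : Group G) (_ : Finite G) (H : Subgroup G),
        Nonempty (Seven ≃o Set.Icc H (⊤ : Subgroup G))) ∧ Representable Seven) :=
  ⟨fun _ _ _ _ S₁ S₂ h₁ h₂ h₃ h₄ => representable_constraint S₁ S₂ h₁ h₂ h₃ h₄,
   A000000_closure.result⟩

end Vale.Agent.Results.P183.A0000000_fibre
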