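import Vale.Agent.Lib.P183.LowerBounded
import Vale.Agent.Results.P183.A_seven_interval
import Vale.Agent.Results.P183.A_upto_seven

namespace Vale.Agent.Results.P183.B0_master

open Vale.Agent.Lib.P183

/-- The four parts together: every finite nonempty lattice with at most seven elements is
representable; every finite nonempty lattice without a cycle of the join dependency relation is
representable; representable posets are closed under Day doubling of lower pseudo-intervals; the
seven element lattice `Seven` is an interval of the subgroup lattice of a finite group and is
representable. -/
theorem result :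
    (∀ (L : Type) [Lattice L] [Fintype L] [Nonempty L], Fintype.card L ≤ 7 → Representable L) ∧
    (∀ (L : Type) [Lattice L] [Finite L] [Nonempty L], NoDCycle L → Representable L) ∧
    (∀ (L : Type) [PartialOrder L] (u : L) (Y : Set L),
      (∀ a b, a ∈ Y → a ≤ b → b ∈ Y) → (∀ y ∈ Y, u ≤ y) →
        Representable L → Representable (Doubling L u Y)) ∧
    ((∃ (G : Type) (_ : Group G) (_ : Finite G) (H : Subgroup G),
        Nonempty (Seven ≃o Set.Icc H (⊤ : Subgroup G))) ∧ Representable Seven) :=
  ⟨fun L _ _ _ h => A_upto_seven.result L h,
   fun _ _ _ _ h => representable_of_noDCycle' h,
   fun _ _ u Y h1 h2 h3 => doubling_representable u Y h1 h2 h3,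
   A_seven_interval.result⟩

end Vale.Agent.Results.P183.B0_master
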