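import Vale.Agent.Lib.P183.DoublingC
import Vale.Agent.Results.P183.A_seven_interval
import Vale.Agent.Results.P183.A_upto_seven

namespace Vale.Agent.Results.P183.B_convex

open Vale.Agent.Lib.P183

/-- Representable posets are closed under Day doubling of arbitrary convex subsets; every finite
nonempty lattice with at most seven elements is representable; every finite nonempty lattice
without a cycle of the join dependency relation is representable; the seven element lattice `Seven`
is an interval of the subgroup lattice of a finite group and is representable. -/
theorem result :
    (∀ (L : Type) [PartialOrder L] (C : Set L),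
      (∀ a b c, a ∈ C → c ∈ C → a ≤ b → b ≤ c → b ∈ C) →
        Representable L → Representable (DayDoubling L C)) ∧
    (∀ (L : Type) [Lattice L] [Fintype L] [Nonempty L], Fintype.card L ≤ 7 → Representable L) ∧
    (∀ (L : Type) [Lattice L] [Finite L] [Nonempty L], NoDCycle L → Representable L) ∧
    ((∃ (G : Type) (_ : Group G) (_ : Finite G) (H : Subgroup G),
        Nonempty (Seven ≃o Set.Icc H (⊤ : Subgroup G))) ∧ Representable Seven) :=
  ⟨fun _ _ C h1 h2 => dayDoubling_representable C h1 h2,
   fun L _ _ _ h => A_upto_seven.result L h,
   fun _ _ _ _ h => representable_of_noDCycle' h,
   A_seven_interval.result⟩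

end Vale.Agent.Results.P183.B_convex
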