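import Vale.Agent.Lib.P183.LowerBounded

namespace Vale.Agent.Results.P183.B_doubling

open Vale.Agent.Lib.P183

/-- The posets isomorphic to the full congruence lattice of a finite algebra are closed under Day
doubling of lower pseudo-intervals. -/
theorem result {L : Type} [PartialOrder L] (u : L) (Y : Set L)
    (hYup : ∀ a b, a ∈ Y → a ≤ b → b ∈ Y) (hYu : ∀ y ∈ Y, u ≤ y)
    (h : Representable L) : Representable (Doubling L u Y) :=
  doubling_representable u Y hYup hYu h

end Vale.Agent.Results.P183.B_doubling
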