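import Vale.Agent.Lib.P183.LowerBounded

namespace Vale.Agent.Results.P183.B_lower_bounded

open Vale.Agent.Lib.P183

/-- Every finite nonempty lattice without a cycle of the join dependency relation (equivalently,
every finite lower bounded lattice) is isomorphic to the full congruence lattice of a finite
algebra. -/
theorem result {L : Type} [Lattice L] [Finite L] [Nonempty L] (hL : NoDCycle L) :
    Representable L :=
  representable_of_noDCycle' hL

end Vale.Agent.Results.P183.B_lower_bounded
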